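import Vale.Agent.P261.R2.H823.Close

/-!
# P261: invertible Morava modules which are not of finite type
-/

namespace Vale.Agent.Results.P261.InvertibleModules

open Vale.Agent.P217.LT Vale.Agent.P261.St Topology

/-- Let `n ≥ 2`, let `F` be a universal deformation (height adapted; one exists) of the height `n`
Honda formal group law `Γ`, and let `G` be a topological group which is identified with a subgroup
of finite index of the extended Morava stabilizer group `G_n` and acts continuously (for instance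
`G_n` itself, profinite).  Let `ω` be the Teichmüller character.
* `L_k = π_{2k} E_n ⊗ ω^{-r}`, free of rank one over `E₀`, is a Morava module, and if
  `1 ≤ r ≤ p^(n-1) - 1` and `r ≡ k₀` modulo `p^(n-1) - 1`, then for some subset `T` of
  `{0, …, n-2}`, nonempty if `k₀ ≠ 0`, the `ℤ_p`-module `H^(1+|T|)(G; L_k)` is not finitely
  generated, where `k = k₀ - ∑_{h ∈ T} (p^h - 1)`.  If `ω^r = 1` on `G`, the same holds for
  `π_{2k} E_n`.  (For `n = 2` and `k₀ ≠ 0`, this is `H^2(G; L_{k₀})`.)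
* If `ω` is trivial on `G`, then for every `k₀` there is such a `T` for which
  `H^(1+|T|)(G; π_{2k} E_n)` is not finitely generated. -/
theorem result (p n : ℕ) [Fact p.Prime] (hn : 2 ≤ n) :
    (∃! Γ, IsHonda p n Γ) ∧ ∀ Γ, IsHonda p n Γ →
      (∃ F, IsUniversal p n Γ F ∧ HeightAdapted p n F) ∧
      ∀ F, IsUniversal p n Γ F → HeightAdapted p n F →
        IsStabilizer Γ F ∧
        (∃ (G : Type) (_ : Group G) (a : G → Pair p n), IsFiniteIndex F a ∧
          ∀ y, IsAut F y → ∃ x, a x = y) ∧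
        ∀ (G : Type) [Group G] [TopologicalSpace G] [ContinuousMul G] (a : G → Pair p n),
          IsFiniteIndex F a →
          (∀ K, ∀ᶠ x in 𝓝 (1 : G), PowerSeries.coeff 1 (a x).g - 1 ∈ heightIdeal p n n ^ K ∧
            ∀ s, (a x).φ s - s ∈ heightIdeal p n n ^ K) →
          (∀ i k, IsMoravaModule a (omegaTwist a i k)) ∧
          (∀ (k₀ : ℤ) (r : ℕ), 1 ≤ r → r ≤ p ^ (n - 1) - 1 →
            ((p ^ (n - 1) - 1 : ℕ) : ℤ) ∣ k₀ - r →
            (∃ T ⊆ Finset.range (n - 1), (k₀ ≠ 0 → T.Nonempty) ∧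
              ¬ HFG p n (omegaTwist a (p ^ n - 1 - r)
                (k₀ - ∑ h ∈ T, ((p : ℤ) ^ h - 1))) T.card) ∧
            ((∀ x, red p n (PowerSeries.coeff 1 (a x).g) ^ r = 1) →
              ∃ T ⊆ Finset.range (n - 1), (k₀ ≠ 0 → T.Nonempty) ∧
                ¬ HFG p n (twist a (k₀ - ∑ h ∈ T, ((p : ℤ) ^ h - 1))) T.card)) ∧
          ((∀ x, red p n (PowerSeries.coeff 1 (a x).g) = 1) → ∀ k₀ : ℤ,
            ∃ T ⊆ Finset.range (n - 1), (k₀ ≠ 0 → T.Nonempty) ∧
              ¬ HFG p n (twist a (k₀ - ∑ h ∈ T, ((p : ℤ) ^ h - 1))) T.card) := by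
  obtain ⟨h1, h2⟩ := Vale.Agent.P217.LTC.final p n (by omega)
  refine ⟨h1, fun Γ hΓ => ?_⟩
  obtain ⟨-, h4, -⟩ := h2 Γ hΓ
  exact ⟨h4, fun F hF hA => ⟨Vale.Agent.P261.R2.H932.stabilizer hF,
    ⟨_, _, _, Vale.Agent.P261.R2.H932.full, fun y hy =>
      ⟨Vale.Agent.P261.R2.H932.toGn y hy, rfl⟩⟩,
    fun G _ _ _ a ha hcont => Vale.Agent.P261.R2.H823.inv_final
      (Vale.Agent.P261.R2.H823.stepHFG p n) hn hΓ hF hA G a ha hcont⟩⟩

end Vale.Agent.Results.P261.InvertibleModules
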