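import Vale.Agent.P261.R2.H932.Transfer2
import Vale.Agent.P261.R2.H932.H1G

/-!
# P261: the lines `s = 0` and `s = 1` of the descent spectral sequence of the `K(n)`-local sphere
-/

namespace Vale.Agent.Results.P261.MoravaInvariants

open Vale.Agent.P217.LT Vale.Agent.P261.St

/-- Let `F` be a universal deformation (height adapted; one exists) over
`E₀ = W(𝔽_{p^n})[[u_1, …, u_{n-1}]]` of the height `n` Honda formal group law `Γ`.
The group `G_n` of all pairs `(φ, g)`, `φ ∈ Aut(E₀)`, `g : F → φ_* F` an isomorphism, is in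
bijection with `{(σ, γ) | σ ∈ Gal, γ ∈ Aut(Γ)}`.  Let `G ⊆ G_n` be a subgroup of finite index, with
any topology.
* Every `G`-invariant fraction of `E₀/I_h`, `1 ≤ h ≤ n`, is a constant.
* Let `M` be a finitely generated `E₀`-module with a semilinear action of `G`.  Then `H⁰(G; M)` is
  a finitely generated `ℤ_p`-module, finite if `M` is killed by a power of `p`.  If `M` is
  `p`-torsion-free then the torsion subgroup of `H¹(G; M)` is finite, and `H¹(G; M)` is a finitely
  generated `ℤ_p`-module if `H¹(G; M) ⊗ ℚ` is finite-dimensional over `ℚ_p`; and if some central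
  element acts as a scalar `l ≠ 1` in `ℤ_p`, then `H⁰(G; M) = 0` and `H¹(G; M)` is finite.
* The latter applies to `M = π_{2k} E_n`, `k ≠ 0`.
* `H¹(G; π_0 E_n)` is torsion-free. -/
theorem result (p n : ℕ) [Fact p.Prime] (hn : 1 ≤ n) :
    (∃! Γ, IsHonda p n Γ) ∧ ∀ Γ, IsHonda p n Γ →
      (∃ F, IsUniversal p n Γ F ∧ HeightAdapted p n F) ∧
      ∀ F, IsUniversal p n Γ F → HeightAdapted p n F →
        IsStabilizer Γ F ∧
        (∃ (G : Type) (_ : Group G) (a : G → Pair p n), IsFiniteIndex F a ∧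
          ∀ y, IsAut F y → ∃ x, a x = y) ∧
        ∀ (G : Type) [Group G] [TopologicalSpace G] (a : G → Pair p n), IsFiniteIndex F a →
          FractionsConstant a ∧
          (∀ (M : Type) [AddCommGroup M] [Module (E0 p n) M] (ρ : G → M → M),
            IsMoravaModule a ρ →
              H0FG p n ρ ∧ (KilledByPower p n M → H0Finite ρ) ∧
              (TorsionFree p n M → H1TorsionFinite p n ρ ∧
                (H1RationallyFG p n ρ → H1FG p n ρ) ∧
                (CentralScalar p n ρ → H0Zero ρ ∧ H1Finite p n ρ))) ∧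
          (∀ k : ℤ, IsMoravaModule a (twist a k) ∧
            (k ≠ 0 → CentralScalar p n (twist a k) ∧
              H0Zero (twist a k) ∧ H1Finite p n (twist a k))) ∧
          H1TorsionFree p n (twist a 0) := by
  obtain ⟨h1, h2⟩ := Vale.Agent.P217.LTC.final p n hn
  refine ⟨h1, fun Γ hΓ => ?_⟩
  obtain ⟨-, h4, -⟩ := h2 Γ hΓ
  refine ⟨h4, fun F hF hA => ⟨Vale.Agent.P261.R2.H932.stabilizer hF,
    ⟨_, _, _, Vale.Agent.P261.R2.H932.full, fun y hy =>
      ⟨Vale.Agent.P261.R2.H932.toGn y hy, rfl⟩⟩, fun G _ _ a ha => ⟨?_, ?_, ?_, ?_⟩⟩⟩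
  · exact Vale.Agent.P261.R2.H932.frac' hn hΓ hF hA ha
  · exact fun M _ _ ρ h => ⟨Vale.Agent.P261.R2.H932.h0fg' hn hΓ hF hA ha h,
      fun hk => Vale.Agent.P261.R2.H932.h0fin' hn hΓ hF hA ha h hk,
      fun htf => ⟨Vale.Agent.P261.R2.H932.h1tf' hn hΓ hF hA ha h htf,
        Vale.Agent.P261.R2.H932.HG.h1_fg h (Vale.Agent.P261.R2.H932.fix_zp ha)
          (Vale.Agent.P261.R2.H932.h1tf' hn hΓ hF hA ha h htf),
        fun hc => ⟨Vale.Agent.P261.R2.H932.central_h0 htf hc,
          Vale.Agent.P261.R2.H932.h1fin' hn hΓ hF hA ha h htf hc⟩⟩⟩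
  · intro k
    have h5 := Vale.Agent.P261.R2.H932.twist_module ha k
    refine ⟨h5, fun hk => ?_⟩
    have h6 := Vale.Agent.P261.R2.H932.twist_central hF ha k hk
    have h7 : TorsionFree p n (E0 p n) := by
      have hD : IsDomain (E0 p n) := NoZeroDivisors.to_isDomain _
      intro m hm
      rw [smul_eq_mul] at hm
      exact (mul_eq_zero.1 hm).resolve_left Vale.Agent.P261.R2.H86.p_ne_zero
    exact ⟨h6, Vale.Agent.P261.R2.H932.central_h0 h7 h6,
      Vale.Agent.P261.R2.H932.h1fin' hn hΓ hF hA ha h5 h7 h6⟩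
  · exact Vale.Agent.P261.R2.H932.twist_zero_tf hn hΓ hF hA ha

end Vale.Agent.Results.P261.MoravaInvariants
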