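import Vale.Agent.P261.R2.H288.StForm

/-!
# P261: Morava modules that are not of finite type, at every height `n ≥ 2` and every prime
-/

namespace Vale.Agent.Results.P261.NotFiniteType

open Vale.Agent.P217.LT Vale.Agent.P261.St Topology

/-- `G` acts on `π_{2k} E_n / I_{n-1} ⊗ ω ^ i`, that is on `E₀ / I_{n-1}` by
`r ↦ [ω(x)] ^ i * g'(0) ^ k * φ(r)`, where `x = (φ, g)`, `ω(x)` is the residue of `g'(0)` and `[ ]`
the Teichmüller representative; this is a Morava module, and its first cohomology group is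
infinite. -/
def InfiniteH1 {p n : ℕ} [Fact p.Prime] {G : Type} [Group G] [TopologicalSpace G]
    (a : G → Pair p n) (k : ℤ) (i : ℕ) : Prop :=
  ∃ ρ : G → (E0 p n ⧸ heightIdeal p n (n - 1)) → (E0 p n ⧸ heightIdeal p n (n - 1)),
    (∀ (x : G) (r : E0 p n), ρ x (Ideal.Quotient.mk _ r) = Ideal.Quotient.mk _
      (MvPowerSeries.C (WittVector.teichmuller p (red p n (PowerSeries.coeff 1 (a x).g))) ^ i *
        twist a k x r)) ∧
    IsMoravaModule a ρ ∧ ¬ H1Finite p n ρ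

/-- Let `n ≥ 2`, let `F` be a universal deformation (height adapted; one exists) over
`E₀ = W(𝔽_{p^n})[[u_1, …, u_{n-1}]]` of the height `n` Honda formal group law `Γ`, and let `G` be a
subgroup of finite index of the extended Morava stabilizer group `G_n`, with any topology for which
`x ↦ g'(0)` is continuous at `1`, `x = (φ, g)`.
* If `ω(x) = 1` for all `x ∈ G` then `H¹(G; π_{2k} E_n / I_{n-1})` is infinite for every `k`.
* For arbitrary `G`, `G = G_n` included, `H¹(G; π_{2k} E_n / I_{n-1} ⊗ ω ^ (-r))` is infinite for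
  `1 ≤ r ≤ p ^ (n - 1) - 1` congruent to `k` modulo `p ^ (n - 1) - 1`; no twist is needed if
  `ω(x) ^ r = 1` for all `x ∈ G`.
* Every `G` has a finitely generated Morava module `M` killed by `I_{n-1}` such that `H¹(G; M)` is
  infinite for all topologies for which the action on `E₀` is continuous. -/
theorem result (p n : ℕ) [Fact p.Prime] (hn : 2 ≤ n) :
    (∃! Γ, IsHonda p n Γ) ∧ ∀ Γ, IsHonda p n Γ →
      (∃ F, IsUniversal p n Γ F ∧ HeightAdapted p n F) ∧
      ∀ F, IsUniversal p n Γ F → HeightAdapted p n F →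
        IsStabilizer Γ F ∧
        (∃ (G : Type) (_ : Group G) (a : G → Pair p n), IsFiniteIndex F a ∧
          ∀ y, (∃ x, a x = y) ↔ IsAut F y) ∧
        (∃ (G : Type) (_ : Group G) (a : G → Pair p n), IsFiniteIndex F a ∧
          ∀ y, (∃ x, a x = y) ↔ IsAut F y ∧ red p n (PowerSeries.coeff 1 y.g) = 1) ∧
        ∀ (G : Type) [Group G] (a : G → Pair p n), IsFiniteIndex F a →
          (∀ [TopologicalSpace G], (∀ K : ℕ, ∀ᶠ x in 𝓝 (1 : G),
              PowerSeries.coeff 1 (a x).g - 1 ∈ heightIdeal p n n ^ K) → ∀ k : ℤ,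
            ((∀ x, red p n (PowerSeries.coeff 1 (a x).g) = 1) → InfiniteH1 a k 0) ∧
            ∀ r : ℕ, 1 ≤ r → r ≤ p ^ (n - 1) - 1 → ((p ^ (n - 1) - 1 : ℕ) : ℤ) ∣ k - r →
              InfiniteH1 a k (p ^ n - 1 - r) ∧
              ((∀ x, red p n (PowerSeries.coeff 1 (a x).g) ^ r = 1) → InfiniteH1 a k 0)) ∧
          ∃ (M : Type) (_ : AddCommGroup M) (_ : Module (E0 p n) M) (ρ : G → M → M),
            IsMoravaModule a ρ ∧ (∀ r ∈ heightIdeal p n (n - 1), ∀ m : M, r • m = 0) ∧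
            ∀ [TopologicalSpace G], (∀ k, ∀ᶠ x in 𝓝 (1 : G), ∀ r,
              (a x).φ r - r ∈ heightIdeal p n n ^ k) → ¬ H1Finite p n ρ := by
  have hn1 : 1 ≤ n := by omega
  obtain ⟨h1, h2⟩ := Vale.Agent.P217.LTC.final p n hn1
  refine ⟨h1, fun Γ hΓ => ?_⟩
  obtain ⟨-, h4, -⟩ := h2 Γ hΓ
  refine ⟨h4, fun F hF hA => ⟨Vale.Agent.P261.R2.H932.stabilizer hF,
    ⟨_, _, _, Vale.Agent.P261.R2.H932.full, fun y => ⟨?_, fun hy =>
      ⟨Vale.Agent.P261.R2.H932.toGn y hy, rfl⟩⟩⟩,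
    Vale.Agent.P261.R2.H288.exists_strict_st hn1 hA,
    fun G _ a ha => ⟨fun {_} hcont k => ⟨fun hs => ?_, fun r hr hrN hk => ?_⟩,
      Vale.Agent.P261.R2.H288.neg_st ha hn hΓ hF hA⟩⟩⟩
  · rintro ⟨x, rfl⟩
    exact Vale.Agent.P261.R2.H932.ofGn_aut x
  · obtain ⟨ρ, h5, h6, h7⟩ := Vale.Agent.P261.R2.H288.final_strict ha hn hΓ hF hA hcont k hs
    refine ⟨ρ, fun x r => ?_, h6, h7⟩
    rw [pow_zero, one_mul]
    exact h5 x r
  · have hlt : p ^ (n - 1) < p ^ n :=
      Nat.pow_lt_pow_right (Fact.out : p.Prime).one_lt (by omega)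
    refine ⟨⟨Vale.Agent.P261.R2.H288.rhoSt ha hA k (p ^ n - 1 - r),
      fun x y => Vale.Agent.P261.R2.H288.rhoSt_mk ha hA k _ x y,
      Vale.Agent.P261.R2.H288.rhoSt_module ha hn hA k _,
      Vale.Agent.P261.R2.H288.main_st ha hn hΓ hF hA hcont k _ r (by omega) hr hrN hk⟩,
      fun hs => ?_⟩
    obtain ⟨ρ, h5, h6, h7⟩ :=
      Vale.Agent.P261.R2.H288.final_pow ha hn hΓ hF hA hcont k r hr hrN hk hs
    refine ⟨ρ, fun x y => ?_, h6, h7⟩
    rw [pow_zero, one_mul]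
    exact h5 x y

end Vale.Agent.Results.P261.NotFiniteType
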